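import Vale.Agent.P125.Dich.ApiB

set_option linter.unusedSectionVars false
set_option linter.unusedVariables false

/-! # P125 characterisation project: stationarity for sums over the marks -/

namespace Vale.Agent.P125.Char

open Vale.Agent.P125.Dich
open scoped BigOperators

variable {S M : Type} [Fintype S] [Fintype M]

/-- stationarity: the expected sum of `g` over the `t` marks is `t` times the one step value.
(Induction on `t`: for lists of length `t+1`, `(l.map g).sum = ((l.take 1).map g).sum +
((l.drop 1).map g).sum`; use `E_congr`, `E_add`, `E_take`, `E_drop`.) -/
lemma E_sum_marks (C : MChain S M) (g : M → ℝ) (t : ℕ) :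
    C.E t (fun l => (l.map g).sum) = t * C.E 1 (fun l => (l.map g).sum) := by
  induction t with
  | zero =>
    have h : C.E 0 (fun l => (l.map g).sum) = C.E 0 (fun _ => (0 : ℝ)) := by
      apply E_congr
      intro l hl
      have : l = [] := List.length_eq_zero_iff.mp hl
      subst this
      simp
    rw [h, E_const]
    simp
  | succ t ih =>
    have h : C.E (t + 1) (fun l => (l.map g).sum)
        = C.E (1 + t) (fun l => ((l.take 1).map g).sum + ((l.drop 1).map g).sum) := by
      rw [Nat.add_comm t 1]
      apply E_congr
      intro l _
      rw [← List.sum_append, ← List.map_append, List.take_append_drop]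
    rw [h, E_add, E_take C 1 t (fun l => (l.map g).sum), E_drop C 1 t (fun l => (l.map g).sum), ih]
    push_cast
    ring

end Vale.Agent.P125.Char
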