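import Vale.Agent.P125.Char.PW
import Vale.Agent.P125.Char.Conv_A

set_option linter.unusedSectionVars false
set_option linter.unusedVariables false

/-! # P125 characterisation project: Markov type `p > 1` gives a strict `L_2` inequality -/

namespace Vale.Agent.P125.Char

open Vale.Agent.P125.Dich
open scoped BigOperators

variable {S M : Type} [Fintype S] [Fintype M]

/-- the rescaled vector has `p`-th power of the norm equal to the square of the norm -/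
lemma norm_rescale_rpow {X : Type*} [NormedAddCommGroup X] [NormedSpace ℝ X] (p : ℝ) (hp : 1 < p)
    (v : X) : ‖(‖v‖ ^ (2 / p - 1)) • v‖ ^ p = ‖v‖ ^ 2 := by
  have hp0 : p ≠ 0 := by linarith
  rcases eq_or_lt_of_le (norm_nonneg v) with h0 | hpos
  · have hv : v = 0 := norm_eq_zero.mp h0.symm
    rw [hv, smul_zero, norm_zero, Real.zero_rpow hp0]
    norm_num
  · rw [norm_smul, Real.norm_of_nonneg (Real.rpow_nonneg hpos.le _)]
    have h1 : ‖v‖ ^ (2 / p - 1) * ‖v‖ = ‖v‖ ^ (2 / p) := by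
      have h2 := Real.rpow_add_one hpos.ne' (2 / p - 1)
      rw [sub_add_cancel] at h2
      exact h2.symm
    rw [h1, ← Real.rpow_mul hpos.le]
    have h3 : 2 / p * p = ((2 : ℕ) : ℝ) := by
      field_simp
      norm_num
    rw [h3, Real.rpow_natCast]

/-- Apply `pathwise` to `l.map ω` (lists of length `t`), take expectations (`E_mono`, `E_add`,
`E_const_mul`), use `E_sum_marks` with `g m = ‖ω m‖^2`, and Markov type `p` for
`ω' m = ‖ω m‖^(2/p-1) • ω m` (antisymmetric; `‖ω' m‖^p = ‖ω m‖^2`).  This gives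
`E_t ‖sm ω‖^2 ≤ (9/10 t^2 + 10/9 4^p K^p t^(3-p)) E_1 ‖sm ω‖^2`; choose `t0` by `exists_t0`. -/
theorem strict_of_markType (X : Type*) [NormedAddCommGroup X] [NormedSpace ℝ X] (p K : ℝ)
    (hp : 1 < p) (hK : 0 ≤ K) (h : MarkType X p K) :
    ∃ t0 : ℕ, 2 ≤ t0 ∧ ∀ (S M : Type) [Fintype S] [Fintype M] (C : MChain S M) (ω : M → X),
      (∀ m, ω (C.inv m) = - ω m) →
        C.E t0 (fun l => ‖sm ω l‖ ^ 2) ≤
          19 / 20 * (t0 : ℝ) ^ 2 * C.E 1 (fun l => ‖sm ω l‖ ^ 2) := by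
  have hc : 0 ≤ 10 / 9 * (4 : ℝ) ^ p * K ^ p := by
    have h1 : 0 ≤ (4 : ℝ) ^ p := Real.rpow_nonneg (by norm_num) p
    have h2 : 0 ≤ K ^ p := Real.rpow_nonneg hK p
    positivity
  obtain ⟨t0, ht0, hsm⟩ := exists_t0 p (10 / 9 * (4 : ℝ) ^ p * K ^ p) hp hc
  refine ⟨t0, ht0, ?_⟩
  intro S M _ _ C ω hω
  have htpos : (0 : ℝ) < t0 := by
    have : 0 < t0 := by omega
    exact_mod_cast this
  -- the rescaled mark function
  obtain ⟨ω', hω'⟩ : ∃ ω' : M → X, ω' = fun m => (‖ω m‖ ^ (2 / p - 1)) • ω m := ⟨_, rfl⟩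
  obtain ⟨g, hg⟩ : ∃ g : M → ℝ, g = fun m => ‖ω m‖ ^ 2 := ⟨_, rfl⟩
  have hanti : ∀ m, ω' (C.inv m) = - ω' m := by
    intro m
    rw [hω']
    show (‖ω (C.inv m)‖ ^ (2 / p - 1)) • ω (C.inv m) = - ((‖ω m‖ ^ (2 / p - 1)) • ω m)
    rw [hω m, norm_neg, smul_neg]
  obtain ⟨E1, hE1⟩ : ∃ E1, E1 = C.E 1 (fun l => ‖sm ω l‖ ^ 2) := ⟨_, rfl⟩
  have hE1nn : 0 ≤ E1 := by
    rw [hE1]
    exact E_nonneg C 1 _ (fun l _ => by positivity)
  -- one step identities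
  have hone_g : C.E 1 (fun l => (l.map g).sum) = E1 := by
    rw [hE1]
    refine E_congr C 1 _ _ (fun l hl => ?_)
    obtain ⟨m, rfl⟩ := List.length_eq_one_iff.mp hl
    rw [hg]
    simp [sm]
  have hone_p : C.E 1 (fun l => ‖sm ω' l‖ ^ p) = E1 := by
    rw [hE1]
    refine E_congr C 1 _ _ (fun l hl => ?_)
    obtain ⟨m, rfl⟩ := List.length_eq_one_iff.mp hl
    have h1 : sm ω' [m] = (‖ω m‖ ^ (2 / p - 1)) • ω m := by
      rw [hω']
      simp [sm]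
    have h2 : sm ω [m] = ω m := by simp [sm]
    rw [h1, h2]
    exact norm_rescale_rpow p hp (ω m)
  -- pathwise inequality
  obtain ⟨c1, hc1⟩ : ∃ c1, c1 = 10 / 9 * (4 : ℝ) ^ p * (t0 : ℝ) ^ (2 - p) := ⟨_, rfl⟩
  have hc1nn : 0 ≤ c1 := by
    rw [hc1]
    have h1 : 0 ≤ (4 : ℝ) ^ p := Real.rpow_nonneg (by norm_num) p
    have h2 : 0 ≤ (t0 : ℝ) ^ (2 - p) := Real.rpow_nonneg htpos.le _
    positivity
  have hpw : ∀ l : List M, l.length = t0 →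
      ‖sm ω l‖ ^ 2 ≤ 9 / 10 * (t0 : ℝ) * (l.map g).sum + c1 * ‖sm ω' l‖ ^ p := by
    intro l hl
    have h1 := pathwise p hp (l.map ω)
    rw [List.length_map, hl, List.map_map, List.map_map] at h1
    have h2 : ((fun v : X => ‖v‖ ^ 2) ∘ ω) = g := by rw [hg]; rfl
    have h3 : ((fun v : X => (‖v‖ ^ (2 / p - 1)) • v) ∘ ω) = ω' := by rw [hω']; rfl
    rw [h2, h3, ← hc1] at h1
    exact h1
  have hstep1 : C.E t0 (fun l => ‖sm ω l‖ ^ 2) ≤
      9 / 10 * (t0 : ℝ) * C.E t0 (fun l => (l.map g).sum)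
        + c1 * C.E t0 (fun l => ‖sm ω' l‖ ^ p) := by
    have h1 := E_mono C t0 (fun l => ‖sm ω l‖ ^ 2)
      (fun l => 9 / 10 * (t0 : ℝ) * (l.map g).sum + c1 * ‖sm ω' l‖ ^ p) hpw
    rw [E_add C t0 (fun l => 9 / 10 * (t0 : ℝ) * (l.map g).sum) (fun l => c1 * ‖sm ω' l‖ ^ p),
      E_const_mul, E_const_mul] at h1
    exact h1
  have hmk := h S M C ω' hanti t0 (by omega)
  rw [hone_p] at hmk
  rw [E_sum_marks C g t0, hone_g] at hstep1
  have hpow : (t0 : ℝ) ^ (2 - p) * (t0 : ℝ) = (t0 : ℝ) ^ (3 - p) := by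
    have h2 := Real.rpow_add_one htpos.ne' (2 - p)
    have h3 : 2 - p + 1 = 3 - p := by ring
    rw [h3] at h2
    exact h2.symm
  rw [← hE1]
  have h5 : c1 * C.E t0 (fun l => ‖sm ω' l‖ ^ p) ≤ c1 * (K ^ p * t0 * E1) :=
    mul_le_mul_of_nonneg_left hmk hc1nn
  have h6 : c1 * (K ^ p * t0 * E1) = (10 / 9 * (4 : ℝ) ^ p * K ^ p * (t0 : ℝ) ^ (3 - p)) * E1 := by
    rw [hc1, ← hpow]; ring
  have h7 : (10 / 9 * (4 : ℝ) ^ p * K ^ p * (t0 : ℝ) ^ (3 - p)) * E1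
      ≤ (1 / 20 * (t0 : ℝ) ^ 2) * E1 := mul_le_mul_of_nonneg_right hsm hE1nn
  have h8 : 9 / 10 * (t0 : ℝ) * ((t0 : ℝ) * E1) + (1 / 20 * (t0 : ℝ) ^ 2) * E1
      = 19 / 20 * (t0 : ℝ) ^ 2 * E1 := by ring
  linarith

end Vale.Agent.P125.Char
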