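import Vale.Agent.P125.Dich.FL
import Vale.Agent.P125.Basic

set_option linter.unusedSectionVars false
set_option linter.unusedVariables false

/-! # The forms lemma for a real exponent `p > 0` -/

namespace Vale.Agent.P125.Char

open Vale.Agent.P125.Dich

open scoped BigOperators

variable {S M : Type} [Fintype S] [Fintype M] [DecidableEq S] [DecidableEq M] (C : MChain S M)
variable {X : Type*} [NormedAddCommGroup X] [NormedSpace ℝ X]

lemma valT_one_sm_p (p : ℝ) (ω : M → X) (x : S) :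
    C.valT 1 (fun l _ => ‖sm ω l‖ ^ p) x = ∑ m, ∑ y, C.Q x m y * ‖ω m‖ ^ p := by
  rw [valT_succ]
  refine Finset.sum_congr rfl fun m _ => Finset.sum_congr rfl fun y _ => ?_
  rw [valT_zero, sm_cons, sm_nil, add_zero]

/-- one step of the cover costs at most one step of the marked chain -/
lemma energy_one_p (p : ℝ) (hp : 0 < p) (L : ℕ) (ω : M → X) (hω : ∀ m, ω (C.inv m) = - ω m) :
    ∑ i, ∑ j, muT C L i * Pt C L i j * ‖Fh ω j.2.1 - Fh ω i.2.1‖ ^ p
      ≤ C.E 1 (fun l => ‖sm ω l‖ ^ p) := by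
  have h1 : ∀ i : S × ↥(box M L),
      ∑ j, muT C L i * Pt C L i j * ‖Fh ω j.2.1 - Fh ω i.2.1‖ ^ p
        ≤ muT C L i * C.valT 1 (fun l _ => ‖sm ω l‖ ^ p) i.1 := by
    intro i
    have h2 : ∑ j, muT C L i * Pt C L i j * ‖Fh ω j.2.1 - Fh ω i.2.1‖ ^ p
        = muT C L i * ∑ j, Pt C L i j * ‖Fh ω j.2.1 - Fh ω i.2.1‖ ^ p := by
      rw [Finset.mul_sum]
      refine Finset.sum_congr rfl fun j _ => ?_
      ring
    rw [h2]
    refine mul_le_mul_of_nonneg_left ?_ (muT_nonneg C L i)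
    rw [Pt_act C L i (fun j => ‖Fh ω j.2.1 - Fh ω i.2.1‖ ^ p), valT_one_sm_p]
    have h3 : cens C L i * ‖Fh ω i.2.1 - Fh ω i.2.1‖ ^ p = 0 := by
      rw [sub_self, norm_zero, Real.zero_rpow hp.ne', mul_zero]
    rw [h3, add_zero]
    refine Finset.sum_le_sum fun m _ => Finset.sum_le_sum fun y _ => ?_
    refine mul_le_mul_of_nonneg_left ?_ (C.Q_nonneg _ _ _)
    rw [box_sel L (i.2.1 + dsp C m)
      (fun g => ‖Fh ω g.1 - Fh ω i.2.1‖ ^ p) (‖ω m‖ ^ p)]
    · split_ifs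
      · exact le_refl _
      · positivity
    · intro g hg
      show ‖Fh ω g.1 - Fh ω i.2.1‖ ^ p = ‖ω m‖ ^ p
      rw [hg, Fh_add, add_sub_cancel_left, Fh_dsp C ω hω]
  refine le_trans (Finset.sum_le_sum fun i _ => h1 i) ?_
  rw [muT_sum_fst C L (fun x => C.valT 1 (fun l _ => ‖sm ω l‖ ^ p) x)]
  exact le_refl _

/-- `b` steps of the cover see `b` steps of the marked chain on the inner box -/
lemma energy_b_p (p : ℝ) (n b : ℕ) (ω : M → X) (hω : ∀ m, ω (C.inv m) = - ω m) :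
    ((box M n).card : ℝ) / (box M (n + b)).card * C.E b (fun l => ‖sm ω l‖ ^ p)
      ≤ ∑ i, ∑ j, muT C (n + b) i * (Pt C (n + b) ^ b) i j * ‖Fh ω j.2.1 - Fh ω i.2.1‖ ^ p := by
  have h1 : ∀ i : S × ↥(box M (n + b)),
      muT C (n + b) i *
        (if i.2.1 ∈ box M n then C.valT b (fun l _ => ‖sm ω l‖ ^ p) i.1 else 0)
      ≤ ∑ j, muT C (n + b) i * (Pt C (n + b) ^ b) i j * ‖Fh ω j.2.1 - Fh ω i.2.1‖ ^ p := by
    intro i
    have h2 : ∑ j, muT C (n + b) i * (Pt C (n + b) ^ b) i j * ‖Fh ω j.2.1 - Fh ω i.2.1‖ ^ p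
        = muT C (n + b) i * ∑ j, (Pt C (n + b) ^ b) i j * ‖Fh ω j.2.1 - Fh ω i.2.1‖ ^ p := by
      rw [Finset.mul_sum]
      refine Finset.sum_congr rfl fun j _ => ?_
      ring
    rw [h2]
    refine mul_le_mul_of_nonneg_left ?_ (muT_nonneg C (n + b) i)
    split_ifs with hi
    · have h3 : ∀ k, -((n + b : ℕ) : ℤ) + b ≤ i.2.1 k ∧ i.2.1 k ≤ ((n + b : ℕ) : ℤ) - b := by
        intro k
        have h4 := (mem_box n i.2.1).1 hi k
        push_cast
        constructor <;> linarith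
      rw [Pt_pow_act C (n + b) b (fun v => ‖Fh ω v - Fh ω i.2.1‖ ^ p) i h3]
      refine le_of_eq (valT_congr C b _ _ (fun l z _ => ?_) i.1)
      rw [Fh_add, add_sub_cancel_left, Fh_sm C ω hω]
    · exact Finset.sum_nonneg fun j _ =>
        mul_nonneg (Pt_pow_nonneg C (n + b) b i j) (by positivity)
  refine le_trans (le_of_eq ?_) (Finset.sum_le_sum fun i _ => h1 i)
  rw [Fintype.sum_prod_type]
  unfold MChain.E muT
  rw [Finset.mul_sum]
  refine Finset.sum_congr rfl fun x _ => ?_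
  have h5 : ∑ y : ↥(box M (n + b)), C.μ x / ((box M (n + b)).card : ℝ) *
      (if y.1 ∈ box M n then C.valT b (fun l _ => ‖sm ω l‖ ^ p) x else 0)
      = C.μ x / ((box M (n + b)).card : ℝ) *
        (((box M n).card : ℝ) * C.valT b (fun l _ => ‖sm ω l‖ ^ p) x) := by
    rw [← Finset.mul_sum, box_inner_sum (Nat.le_add_right n b)]
  refine Eq.trans ?_ h5.symm
  ring



/-- FORMS LEMMA for the exponent `p`: Markov type `p` for functions on ordinary chains gives
Markov type `p` for antisymmetric mark functions on marked chains, with the same constant. -/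
theorem markType_of_hasMarkovType (X : Type*) [NormedAddCommGroup X] [NormedSpace ℝ X] (p K : ℝ)
    (hp : 0 < p) (hK : 0 ≤ K) (h : Vale.Agent.P125.HasMarkovTypeWith X p K) : MarkType X p K := by
  classical
  intro S M _ _ C ω hω b hb
  have key : ∀ n : ℕ,
      (((2 * n + 1) ^ Fintype.card M : ℕ) : ℝ) / (((2 * (n + b) + 1) ^ Fintype.card M : ℕ) : ℝ)
        * C.E b (fun l => ‖sm ω l‖ ^ p) ≤ K ^ p * b * C.E 1 (fun l => ‖sm ω l‖ ^ p) := by
    intro n
    have h1 := energy_b_p C p n b ω hω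
    obtain ⟨c1, c2, c3, c4, c5⟩ := isChain_cover C (n + b)
    have h2 := h (S × ↥(box M (n + b))) (muT C (n + b)) (Pt C (n + b)) c1 c2 c3 c4 c5
      (fun s => Fh ω s.2.1) b hb
    have h3 := energy_one_p C p hp (n + b) ω hω
    rw [card_box, card_box] at h1
    have hc : 0 ≤ K ^ p * (b : ℝ) := mul_nonneg (Real.rpow_nonneg hK p) (Nat.cast_nonneg b)
    exact le_trans h1 (le_trans h2 (mul_le_mul_of_nonneg_left h3 hc))
  have hlim := (box_ratio_tendsto b (Fintype.card M)).mul_const (C.E b (fun l => ‖sm ω l‖ ^ p))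
  rw [one_mul] at hlim
  exact le_of_tendsto' hlim key

end Vale.Agent.P125.Char
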