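import Vale.Agent.P125.Char.FLp
import Vale.Agent.P125.Char.Back2

set_option linter.unusedSectionVars false
set_option linter.unusedVariables false

/-! # P125 characterisation project: Markov type passes to quotient spaces

Let `f : S → X ⧸ Y`.  Fix `ε > 0`.  For every pair `(i,j)` choose `w i j : X` with
`mk (w i j) = f j - f i` and `‖w i j‖ ≤ (1+ε) ‖f j - f i‖` (take `0` if `f j = f i`; otherwise the
quotient norm is an infimum).  Put `ω (i,j) = (1/2) • (w i j - w j i)`: antisymmetric under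
`Prod.swap`, `mk (ω (i,j)) = f j - f i`, `‖ω (i,j)‖ ≤ (1+ε) ‖f j - f i‖`.
Apply `MarkType X p K` (from `markType_of_hasMarkovType`) to `backChain μ P ..` and `ω`.
`sm (fun m => f m.2 - f m.1) l = mk (sm ω l)`, and `‖mk x‖ ≤ ‖x‖`; `back_E` turns the
expectations of the gradient of `f` into the double sums.  One gets the inequality with the
constant `K^p t (1+ε)^p`; let `ε → 0`. -/

namespace Vale.Agent.P125.Char

open Vale.Agent.P125.Dich
open scoped BigOperators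

/-- lifting an element of the quotient with almost the same norm -/
lemma exists_lift_quot (X : Type*) [NormedAddCommGroup X] [NormedSpace ℝ X]
    (Y : Submodule ℝ X) [IsClosed (Y : Set X)] (ε : ℝ) (hε : 0 < ε) (u : X ⧸ Y) :
    ∃ w : X, (Submodule.Quotient.mk w : X ⧸ Y) = u ∧ ‖w‖ ≤ (1 + ε) * ‖u‖ := by
  by_cases hu : u = 0
  · exact ⟨0, by simp [hu], by simp [hu]⟩
  · have hpos : 0 < ε * ‖u‖ := mul_pos hε (norm_pos_iff.mpr hu)
    obtain ⟨w, hw, hlt⟩ := Submodule.Quotient.norm_mk_lt u hpos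
    exact ⟨w, hw, by linarith⟩

/-- the inequality with the constant spoiled by `(1+ε)^p` -/
lemma quotient_eps (X : Type*) [NormedAddCommGroup X] [NormedSpace ℝ X]
    (Y : Submodule ℝ X) [IsClosed (Y : Set X)] (p K : ℝ) (hp : 0 < p) (hK : 0 ≤ K)
    (h : Vale.Agent.P125.HasMarkovTypeWith X p K)
    (S : Type) [Fintype S] [DecidableEq S] (μ : S → ℝ) (P : Matrix S S ℝ)
    (h0 : ∀ i, 0 ≤ μ i) (h1 : ∑ i, μ i = 1) (h2 : ∀ i j, 0 ≤ P i j) (h3 : ∀ i, ∑ j, P i j = 1)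
    (h4 : ∀ i j, μ i * P i j = μ j * P j i) (f : S → X ⧸ Y) (t : ℕ) (ht : 1 ≤ t)
    (ε : ℝ) (hε : 0 < ε) :
    ∑ i, ∑ j, μ i * (P ^ t) i j * ‖f j - f i‖ ^ p ≤
      K ^ p * (t : ℝ) * ((1 + ε) ^ p * ∑ i, ∑ j, μ i * P i j * ‖f j - f i‖ ^ p) := by
  have MT := markType_of_hasMarkovType X p K hp hK h
  choose w hw1 hw2 using fun m : S × S => exists_lift_quot X Y ε hε (f m.2 - f m.1)
  have hanti : ∀ m : S × S, (1 / 2 : ℝ) • (w (Prod.swap m) - w (Prod.swap (Prod.swap m)))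
      = - ((1 / 2 : ℝ) • (w m - w (Prod.swap m))) := by
    intro m
    rw [Prod.swap_swap, ← smul_neg, neg_sub]
  have hmk : ∀ m : S × S,
      (Submodule.Quotient.mk ((1 / 2 : ℝ) • (w m - w (Prod.swap m))) : X ⧸ Y)
        = f m.2 - f m.1 := by
    intro m
    rw [Submodule.Quotient.mk_smul, Submodule.Quotient.mk_sub, hw1, hw1, Prod.snd_swap,
      Prod.fst_swap]
    have h5 : (f m.2 - f m.1) - (f m.1 - f m.2) = (2 : ℝ) • (f m.2 - f m.1) := by
      rw [two_smul]; abel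
    rw [h5, smul_smul]
    norm_num
  have hnorm : ∀ m : S × S,
      ‖(1 / 2 : ℝ) • (w m - w (Prod.swap m))‖ ≤ (1 + ε) * ‖f m.2 - f m.1‖ := by
    intro m
    have e1 := hw2 m
    have e2 := hw2 (Prod.swap m)
    rw [Prod.snd_swap, Prod.fst_swap, norm_sub_rev] at e2
    have e3 := norm_sub_le (w m) (w (Prod.swap m))
    rw [norm_smul]
    have e4 : ‖(1 / 2 : ℝ)‖ = 1 / 2 := by norm_num
    rw [e4]
    linarith
  have key := MT S (S × S) (backChain μ P h0 h1 h2 h3 h4)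
    (fun m => (1 / 2 : ℝ) • (w m - w (Prod.swap m))) (fun m => hanti m) t ht
  have hsm : ∀ l : List (S × S),
      (Submodule.Quotient.mk (sm (fun m => (1 / 2 : ℝ) • (w m - w (Prod.swap m))) l) : X ⧸ Y)
        = sm (fun m : S × S => f m.2 - f m.1) l := by
    intro l
    induction l with
    | nil => rw [sm_nil, sm_nil, Submodule.Quotient.mk_zero]
    | cons m l ih => rw [sm_cons, sm_cons, Submodule.Quotient.mk_add, ih, hmk]
  have hL : (backChain μ P h0 h1 h2 h3 h4).E t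
        (fun l => ‖sm (fun m : S × S => f m.2 - f m.1) l‖ ^ p)
      ≤ (backChain μ P h0 h1 h2 h3 h4).E t
        (fun l => ‖sm (fun m => (1 / 2 : ℝ) • (w m - w (Prod.swap m))) l‖ ^ p) := by
    refine E_mono _ t _ _ fun l _ => ?_
    rw [← hsm l]
    exact Real.rpow_le_rpow (norm_nonneg _) (Submodule.Quotient.norm_mk_le _ _) hp.le
  have hR : (backChain μ P h0 h1 h2 h3 h4).E 1
        (fun l => ‖sm (fun m => (1 / 2 : ℝ) • (w m - w (Prod.swap m))) l‖ ^ p)
      ≤ (1 + ε) ^ p * (backChain μ P h0 h1 h2 h3 h4).E 1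
        (fun l => ‖sm (fun m : S × S => f m.2 - f m.1) l‖ ^ p) := by
    rw [← E_const_mul]
    refine E_mono _ 1 _ _ fun l hl => ?_
    obtain ⟨m, rfl⟩ := List.length_eq_one_iff.mp hl
    rw [sm_cons, sm_nil, add_zero, sm_cons, sm_nil, add_zero,
      ← Real.mul_rpow (by positivity) (norm_nonneg _)]
    exact Real.rpow_le_rpow (norm_nonneg _) (hnorm m) hp.le
  rw [back_E μ P h0 h1 h2 h3 h4 f t (fun u => ‖u‖ ^ p)] at hL
  rw [back_E μ P h0 h1 h2 h3 h4 f 1 (fun u => ‖u‖ ^ p), pow_one] at hR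
  have hc : 0 ≤ K ^ p * (t : ℝ) := mul_nonneg (Real.rpow_nonneg hK p) (Nat.cast_nonneg t)
  exact le_trans hL (le_trans key (mul_le_mul_of_nonneg_left hR hc))

theorem quotient_markovType (X : Type*) [NormedAddCommGroup X] [NormedSpace ℝ X]
    (Y : Submodule ℝ X) [IsClosed (Y : Set X)] (p K : ℝ) (hp : 0 < p) (hK : 0 ≤ K)
    (h : Vale.Agent.P125.HasMarkovTypeWith X p K) :
    Vale.Agent.P125.HasMarkovTypeWith (X ⧸ Y) p K := by
  intro S _ _ μ P h0 h1 h2 h3 h4 f t ht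
  have key : ∀ n : ℕ, ∑ i, ∑ j, μ i * (P ^ t) i j * ‖f j - f i‖ ^ p ≤
      K ^ p * (t : ℝ) * ((1 + 1 / ((n : ℝ) + 1)) ^ p * ∑ i, ∑ j, μ i * P i j * ‖f j - f i‖ ^ p) :=
    fun n => quotient_eps X Y p K hp hK h S μ P h0 h1 h2 h3 h4 f t ht (1 / ((n : ℝ) + 1))
      (by positivity)
  have hlim : Filter.Tendsto (fun n : ℕ => K ^ p * (t : ℝ) *
      ((1 + 1 / ((n : ℝ) + 1)) ^ p * ∑ i, ∑ j, μ i * P i j * ‖f j - f i‖ ^ p)) Filter.atTop
      (nhds (K ^ p * (t : ℝ) * ((1 + 0) ^ p * ∑ i, ∑ j, μ i * P i j * ‖f j - f i‖ ^ p))) := by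
    refine Filter.Tendsto.const_mul _ (Filter.Tendsto.mul_const _ ?_)
    exact Filter.Tendsto.rpow_const
      (tendsto_const_nhds.add tendsto_one_div_add_atTop_nhds_zero_nat) (Or.inl (by norm_num))
  have hfin := ge_of_tendsto' hlim key
  rw [add_zero, Real.one_rpow, one_mul] at hfin
  exact hfin

end Vale.Agent.P125.Char
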