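import Vale.Agent.P125.Dich.Main
import Vale.Agent.P125.Char.Conv
import Vale.Agent.P125.Char.Quot

set_option linter.unusedSectionVars false
set_option linter.unusedVariables false

namespace Vale.Agent.P125.Char

open Vale.Agent.P125.Dich
open scoped BigOperators

/-- Markov type `p > 1` gives one strict `L_2` inequality at one time -/
theorem strict_of_hasMarkovType (X : Type*) [NormedAddCommGroup X] [NormedSpace ℝ X] (p K : ℝ)
    (hp : 1 < p) (hK : 0 ≤ K) (h : Vale.Agent.P125.HasMarkovTypeWith X p K) :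
    ∃ (t0 : ℕ) (a : ℝ), 2 ≤ t0 ∧ a < 1 ∧
      ∀ (S : Type) [Fintype S] [DecidableEq S] (μ : S → ℝ) (P : Matrix S S ℝ),
      (∀ i, 0 ≤ μ i) → ∑ i, μ i = 1 → (∀ i j, 0 ≤ P i j) → (∀ i, ∑ j, P i j = 1) →
      (∀ i j, μ i * P i j = μ j * P j i) → ∀ f : S → X,
        ∑ i, ∑ j, μ i * (P ^ t0) i j * ‖f j - f i‖ ^ 2 ≤
          a * (t0 : ℝ) ^ 2 * ∑ i, ∑ j, μ i * P i j * ‖f j - f i‖ ^ 2 := by
  obtain ⟨t0, ht0, hs⟩ := strict_of_markType X p K hp hK
    (markType_of_hasMarkovType X p K (by linarith) hK h)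
  exact ⟨t0, 19 / 20, ht0, by norm_num, fun_of_mark_sq X t0 _ hs⟩

end Vale.Agent.P125.Char
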