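import Vale.Agent.P125.Char.PW_Fin

/-! # P125 characterisation project: the pathwise inequality, list form -/

namespace Vale.Agent.P125.Char

open scoped BigOperators

/-- the sum of a mapped list as a sum over `Fin l.length` -/
theorem list_map_sum_eq_fin {X M : Type*} [AddCommMonoid M] (f : X → M) (l : List X) :
    (l.map f).sum = ∑ i : Fin l.length, f (l.get i) := by
  induction l with
  | nil => simp
  | cons a t ih =>
    rw [List.map_cons, List.sum_cons, ih]
    simp only [List.length_cons]
    rw [Fin.sum_univ_succ]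
    simp

/-- list form (use `pathwise_fin` with `v i = l.get i`) -/
theorem pathwise {X : Type*} [NormedAddCommGroup X] [NormedSpace ℝ X] (p : ℝ) (hp : 1 < p)
    (l : List X) :
    ‖l.sum‖ ^ 2 ≤ 9 / 10 * (l.length : ℝ) * (l.map (fun v => ‖v‖ ^ 2)).sum
      + 10 / 9 * (4 : ℝ) ^ p * (l.length : ℝ) ^ (2 - p)
        * ‖(l.map (fun v => (‖v‖ ^ (2 / p - 1)) • v)).sum‖ ^ p := by
  have h := pathwise_fin p hp (fun i : Fin l.length => l.get i)
  have h1 : l.sum = ∑ i : Fin l.length, l.get i := by
    have h0 := list_map_sum_eq_fin (fun x : X => x) l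
    rw [List.map_id'] at h0
    exact h0
  rw [h1, list_map_sum_eq_fin (fun v : X => ‖v‖ ^ 2) l,
    list_map_sum_eq_fin (fun v : X => (‖v‖ ^ (2 / p - 1)) • v) l]
  exact h

end Vale.Agent.P125.Char
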