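import Mathlib

/-! # P125 characterisation project: a scalar inequality for real powers -/

namespace Vale.Agent.P125.Char

/-- for `0 ≤ δ ≤ 1` and `x > 0` the power `x^δ` lies between `x` and `1`, so
`|1 - x^δ| ≤ |x - 1|`. -/
lemma abs_one_sub_rpow_le (x δ : ℝ) (hx : 0 < x) (h0 : 0 ≤ δ) (h1 : δ ≤ 1) :
    |1 - x ^ δ| ≤ |x - 1| := by
  rcases le_total x 1 with hx1 | hx1
  · have ha : x ^ δ ≤ 1 := Real.rpow_le_one hx.le hx1 h0
    have hb : x ≤ x ^ δ := by
      have := Real.rpow_le_rpow_of_exponent_ge hx hx1 h1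
      simpa using this
    rw [abs_of_nonneg (by linarith), abs_of_nonpos (by linarith)]
    linarith
  · have ha : 1 ≤ x ^ δ := Real.one_le_rpow hx1 h0
    have hb : x ^ δ ≤ x := by
      have := Real.rpow_le_rpow_of_exponent_le hx1 h1
      simpa using this
    rw [abs_of_nonpos (by linarith), abs_of_nonneg (by linarith)]
    linarith

/-- for `0 < γ ≤ 2` and `x ≥ 0`: `|x - x^γ| ≤ (1 + x) |x - 1|`.
Proof: if `γ ≤ 1`: for `x ≤ 1`, `x ≤ x^γ ≤ 1`; for `x ≥ 1`, `1 ≤ x^γ ≤ x`; so `|x - x^γ| ≤ |x-1|`.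
If `1 ≤ γ ≤ 2`: `x^γ = x * x^(γ-1)` and by the first case shape `|1 - x^(γ-1)| ≤ |1 - x|`
(`x^(γ-1)` lies between `x` and `1`), so `|x - x^γ| ≤ x |x-1|`.  (`x = 0` separately.) -/
lemma abs_sub_rpow_le (x γ : ℝ) (hx : 0 ≤ x) (h0 : 0 < γ) (h2 : γ ≤ 2) :
    |x - x ^ γ| ≤ (1 + x) * |x - 1| := by
  rcases hx.eq_or_lt with rfl | hx
  · rw [Real.zero_rpow h0.ne']; simp
  have habs : 0 ≤ |x - 1| := abs_nonneg _
  rcases le_total γ 1 with h1 | h1
  · -- `x^γ` lies between `x` and `1`
    have key : |x - x ^ γ| ≤ |x - 1| := by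
      rcases le_total x 1 with hx1 | hx1
      · have ha : x ^ γ ≤ 1 := Real.rpow_le_one hx.le hx1 h0.le
        have hb : x ≤ x ^ γ := by
          have := Real.rpow_le_rpow_of_exponent_ge hx hx1 h1
          simpa using this
        rw [abs_of_nonpos (by linarith), abs_of_nonpos (by linarith)]
        linarith
      · have ha : 1 ≤ x ^ γ := Real.one_le_rpow hx1 h0.le
        have hb : x ^ γ ≤ x := by
          have := Real.rpow_le_rpow_of_exponent_le hx1 h1
          simpa using this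
        rw [abs_of_nonneg (by linarith), abs_of_nonneg (by linarith)]
        linarith
    nlinarith
  · have hsplit : x ^ γ = x * x ^ (γ - 1) := by
      have : γ = 1 + (γ - 1) := by ring
      conv_lhs => rw [this]
      rw [Real.rpow_add hx, Real.rpow_one]
    have h := abs_one_sub_rpow_le x (γ - 1) hx (by linarith) (by linarith)
    have e : x - x ^ γ = x * (1 - x ^ (γ - 1)) := by rw [hsplit]; ring
    rw [e, abs_mul, abs_of_pos hx]
    nlinarith
end Vale.Agent.P125.Char
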