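import Mathlib

/-! # P125 characterisation project: a scalar inequality for real powers -/

namespace Vale.Agent.P125.Char

/-- Proof: the left side is `(w / (t Q)) ^ ((p-2)/2)` and `9/10 / t^2 < w/(tQ) ≤ 1/t^2`.
If `p ≥ 2` the exponent is `≥ 0`: bound by `(1/t^2)^((p-2)/2) = t^(2-p)`.
If `p < 2` the exponent `e` is in `(-1/2, 0)`: bound by `(9/10/t^2)^e = (10/9)^(-e) t^(2-p)`
and `(10/9)^(-e) ≤ 10/9`. -/
lemma const_bound (p t Q w : ℝ) (hp : 1 < p) (ht : 1 ≤ t) (hQ : 0 < Q)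
    (h1 : 9 / 10 * Q / t < w) (h2 : w ≤ Q / t) :
    t * Q * (t * Q) ^ (-(p / 2)) * w ^ ((p - 2) / 2) ≤ 10 / 9 * t ^ (2 - p) := by
  have ht0 : 0 < t := lt_of_lt_of_le one_pos ht
  have hA : 0 < t * Q := by positivity
  have hw : 0 < w := lt_trans (by positivity) h1
  obtain ⟨e, he⟩ : ∃ e : ℝ, e = (p - 2) / 2 := ⟨_, rfl⟩
  have e1 : t * Q * (t * Q) ^ (-(p / 2)) = (t * Q) ^ (-e) := by
    have h := Real.rpow_add hA 1 (-(p / 2))
    rw [Real.rpow_one] at h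
    rw [← h]
    congr 1
    rw [he]; ring
  have e2 : (t * Q) ^ (-e) * w ^ e = (w / (t * Q)) ^ e := by
    rw [Real.div_rpow hw.le hA.le, Real.rpow_neg hA.le]
    field_simp
  have key : ((t ^ 2)⁻¹) ^ e = t ^ (2 - p) := by
    rw [Real.inv_rpow (by positivity), ← Real.rpow_natCast t 2, ← Real.rpow_mul ht0.le,
      ← Real.rpow_neg ht0.le]
    congr 1
    rw [he]; push_cast; ring
  have hr0 : 0 < w / (t * Q) := by positivity
  have hr2 : w / (t * Q) ≤ (t ^ 2)⁻¹ := by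
    rw [div_le_iff₀ hA]
    calc w ≤ Q / t := h2
      _ = (t ^ 2)⁻¹ * (t * Q) := by field_simp
  have hr1 : 9 / 10 * (t ^ 2)⁻¹ ≤ w / (t * Q) := by
    rw [le_div_iff₀ hA]
    calc 9 / 10 * (t ^ 2)⁻¹ * (t * Q) = 9 / 10 * Q / t := by field_simp
      _ ≤ w := h1.le
  have hpos : 0 < t ^ (2 - p) := Real.rpow_pos_of_pos ht0 _
  rw [← he, e1, e2]
  by_cases hc : 0 ≤ e
  · calc (w / (t * Q)) ^ e ≤ ((t ^ 2)⁻¹) ^ e := Real.rpow_le_rpow hr0.le hr2 hc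
      _ = t ^ (2 - p) := key
      _ ≤ 10 / 9 * t ^ (2 - p) := by nlinarith
  · have hc' : e ≤ 0 := le_of_lt (not_le.mp hc)
    have hlow : 0 < 9 / 10 * (t ^ 2)⁻¹ := by positivity
    have hten : ((9 : ℝ) / 10) ^ e ≤ 10 / 9 := by
      have h3 : ((9 : ℝ) / 10) ^ e = (10 / 9 : ℝ) ^ (-e) := by
        rw [Real.rpow_neg (by norm_num), ← Real.inv_rpow (by norm_num)]
        norm_num
      rw [h3]
      calc (10 / 9 : ℝ) ^ (-e) ≤ (10 / 9 : ℝ) ^ (1 : ℝ) := by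
            apply Real.rpow_le_rpow_of_exponent_le (by norm_num)
            rw [he]; linarith
        _ = 10 / 9 := Real.rpow_one _
    calc (w / (t * Q)) ^ e ≤ (9 / 10 * (t ^ 2)⁻¹) ^ e :=
          Real.rpow_le_rpow_of_nonpos hlow hr1 hc'
      _ = (9 / 10 : ℝ) ^ e * ((t ^ 2)⁻¹) ^ e := by
          rw [Real.mul_rpow (by norm_num) (by positivity)]
      _ = (9 / 10 : ℝ) ^ e * t ^ (2 - p) := by rw [key]
      _ ≤ 10 / 9 * t ^ (2 - p) := mul_le_mul_of_nonneg_right hten hpos.le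

end Vale.Agent.P125.Char
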