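import Mathlib

/-! # P125 characterisation project: a scalar inequality for real powers -/

namespace Vale.Agent.P125.Char

/-- a time `t0` at which the lower order term is absorbed
(`c * t^(1-p) → 0`, e.g. `tendsto_rpow_neg_atTop`) -/
lemma exists_t0 (p c : ℝ) (hp : 1 < p) (hc : 0 ≤ c) :
    ∃ t0 : ℕ, 2 ≤ t0 ∧ c * (t0 : ℝ) ^ (3 - p) ≤ 1 / 20 * (t0 : ℝ) ^ 2 := by
  have h1 : Filter.Tendsto (fun n : ℕ => ((n : ℝ)) ^ (p - 1)) Filter.atTop Filter.atTop :=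
    (tendsto_rpow_atTop (by linarith : 0 < p - 1)).comp tendsto_natCast_atTop_atTop
  have h2 := (h1.eventually_ge_atTop (20 * c)).and (Filter.eventually_ge_atTop 2)
  obtain ⟨t0, h3, h4⟩ := h2.exists
  refine ⟨t0, h4, ?_⟩
  have ht : (0 : ℝ) < (t0 : ℝ) := by
    have : 0 < t0 := by omega
    exact_mod_cast this
  have hq : 0 < (t0 : ℝ) ^ (p - 1) := Real.rpow_pos_of_pos ht _
  have e : (t0 : ℝ) ^ (3 - p) * (t0 : ℝ) ^ (p - 1) = (t0 : ℝ) ^ 2 := by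
    rw [← Real.rpow_add ht]
    have : (3 - p + (p - 1)) = ((2 : ℕ) : ℝ) := by
      push_cast
      ring
    rw [this, Real.rpow_natCast]
  have hr : 0 ≤ (t0 : ℝ) ^ (3 - p) := (Real.rpow_pos_of_pos ht _).le
  have h5 : (t0 : ℝ) ^ (3 - p) * (20 * c) ≤ (t0 : ℝ) ^ (3 - p) * (t0 : ℝ) ^ (p - 1) :=
    mul_le_mul_of_nonneg_left h3 hr
  rw [e] at h5
  linarith

end Vale.Agent.P125.Char
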