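import Mathlib

/-! # P125 characterisation project: the error term for almost constant step lengths -/

namespace Vale.Agent.P125.Char

open scoped BigOperators

/-- Let `A = ∑ a`, `Q = ∑ a^2`, `m = A / n` (the mean).  If `9/10 n Q < A^2` then
`∑ (1 + a_i/m) |a_i - m| ≤ 13/20 sqrt (n Q)`.
Proof: `∑ (a_i - m)^2 = Q - A^2/n < Q/10`.  Cauchy-Schwarz:
`∑ |a_i - m| ≤ sqrt n * sqrt (Q/10) = sqrt (nQ) / sqrt 10`, and
`∑ a_i |a_i - m| ≤ sqrt Q * sqrt (Q/10)`; moreover `m^2 = A^2/n^2 > 9 Q/(10 n)`, so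
`(1/m) sqrt Q sqrt (Q/10) < sqrt (nQ) / 3`.  Finally `1/sqrt 10 + 1/3 < 13/20`.
(Here `n ≥ 1`, `Q > 0`, `A > 0` follow from the hypothesis.) -/
lemma err_bound {n : ℕ} (a : Fin n → ℝ) (ha : ∀ i, 0 ≤ a i)
    (h : 9 / 10 * (n : ℝ) * ∑ i, a i ^ 2 < (∑ i, a i) ^ 2) :
    ∑ i, (1 + a i / ((∑ j, a j) / n)) * |a i - (∑ j, a j) / n|
      ≤ 13 / 20 * Real.sqrt (n * ∑ i, a i ^ 2) := by
  obtain ⟨A, hA⟩ : ∃ A, A = ∑ j, a j := ⟨_, rfl⟩
  obtain ⟨Q, hQ⟩ : ∃ Q, Q = ∑ i, a i ^ 2 := ⟨_, rfl⟩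
  rw [← hA, ← hQ] at h ⊢
  have hQ0 : 0 ≤ Q := hQ ▸ Finset.sum_nonneg fun i _ => sq_nonneg _
  have hA0 : 0 ≤ A := hA ▸ Finset.sum_nonneg fun i _ => ha i
  have hn0 : (0 : ℝ) ≤ n := Nat.cast_nonneg n
  have hApos : 0 < A := by
    rcases hA0.lt_or_eq with h1 | h1
    · exact h1
    · rw [← h1] at h
      nlinarith [mul_nonneg hn0 hQ0]
  have hnpos : (0 : ℝ) < n := by
    rcases Nat.eq_zero_or_pos n with h0 | h0
    · subst h0
      simp [hA] at hApos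
    · exact_mod_cast h0
  obtain ⟨m, hm⟩ : ∃ m, m = A / n := ⟨_, rfl⟩
  rw [← hm]
  have hmpos : 0 < m := hm ▸ div_pos hApos hnpos
  have hAm : A = n * m := by
    rw [hm]
    field_simp
  obtain ⟨V, hV⟩ : ∃ V, V = ∑ i, (a i - m) ^ 2 := ⟨_, rfl⟩
  have hVeq : V = Q - n * m ^ 2 := by
    have h1 : V = ∑ i, (a i ^ 2 - 2 * m * a i + m ^ 2) := by
      rw [hV]
      apply Finset.sum_congr rfl
      intro i _
      ring
    rw [h1, Finset.sum_add_distrib, Finset.sum_sub_distrib, ← Finset.mul_sum]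
    simp only [Finset.sum_const, Finset.card_univ, Fintype.card_fin, nsmul_eq_mul]
    rw [← hA, ← hQ, hAm]
    ring
  have h2 : 9 / 10 * Q < n * m ^ 2 := by
    rw [hAm] at h
    have h3 : (n : ℝ) * (9 / 10 * Q) < n * (n * m ^ 2) := by nlinarith
    exact lt_of_mul_lt_mul_left h3 hn0
  have hV10 : V ≤ Q / 10 := by
    rw [hVeq]
    linarith
  have hV0 : 0 ≤ V := hV ▸ Finset.sum_nonneg fun i _ => sq_nonneg _
  obtain ⟨S1, hS1⟩ : ∃ S1, S1 = ∑ i, |a i - m| := ⟨_, rfl⟩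
  obtain ⟨S2, hS2⟩ : ∃ S2, S2 = ∑ i, a i * |a i - m| := ⟨_, rfl⟩
  have hS1sq : S1 ^ 2 ≤ n * V := by
    have h3 := sq_sum_le_card_mul_sum_sq (s := Finset.univ) (f := fun i => |a i - m|)
    simp only [sq_abs, Finset.card_univ, Fintype.card_fin] at h3
    rw [hS1, hV]
    exact h3
  have hS2sq : S2 ^ 2 ≤ Q * V := by
    have h3 := Finset.sum_mul_sq_le_sq_mul_sq Finset.univ a (fun i => |a i - m|)
    simp only [sq_abs] at h3
    rw [hS2, hV, hQ]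
    exact h3
  have hsplit : ∑ i, (1 + a i / m) * |a i - m| = S1 + S2 / m := by
    rw [hS1, hS2, Finset.sum_div, ← Finset.sum_add_distrib]
    apply Finset.sum_congr rfl
    intro i _
    ring
  obtain ⟨R, hR⟩ : ∃ R, R = Real.sqrt (n * Q) := ⟨_, rfl⟩
  rw [← hR, hsplit]
  have hR0 : 0 ≤ R := hR ▸ Real.sqrt_nonneg _
  have hR2 : R ^ 2 = n * Q := by
    rw [hR]
    exact Real.sq_sqrt (mul_nonneg hn0 hQ0)
  have hS10 : 0 ≤ S1 := hS1 ▸ Finset.sum_nonneg fun i _ => abs_nonneg _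
  have hS20 : 0 ≤ S2 := hS2 ▸ Finset.sum_nonneg fun i _ => mul_nonneg (ha i) (abs_nonneg _)
  have b1 : S1 ≤ 3163 / 10000 * R := by
    by_contra hcon
    rw [not_le] at hcon
    have h3 : (3163 / 10000 * R) ^ 2 < S1 ^ 2 :=
      pow_lt_pow_left₀ hcon (by positivity) two_ne_zero
    have h4 : (n : ℝ) * V ≤ n * (Q / 10) := mul_le_mul_of_nonneg_left hV10 hn0
    nlinarith [mul_nonneg hn0 hQ0]
  have b2 : S2 / m ≤ 1 / 3 * R := by
    rw [div_le_iff₀ hmpos]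
    by_contra hcon
    rw [not_le] at hcon
    have h3 : (1 / 3 * R * m) ^ 2 < S2 ^ 2 :=
      pow_lt_pow_left₀ hcon (by positivity) two_ne_zero
    have h4 : Q * V ≤ Q * (Q / 10) := mul_le_mul_of_nonneg_left hV10 hQ0
    have h5 : Q * (9 / 10 * Q) ≤ Q * (n * m ^ 2) := mul_le_mul_of_nonneg_left h2.le hQ0
    have h6 : (1 / 3 * R * m) ^ 2 = 1 / 9 * (Q * (n * m ^ 2)) := by
      rw [mul_pow, mul_pow, hR2]
      ring
    nlinarith
  linarith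

end Vale.Agent.P125.Char
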