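import Vale.Agent.P125.Char.PW_A
import Vale.Agent.P125.Char.PW_B

/-! # P125 characterisation project: the pathwise inequality

For vectors `v_1 .. v_n` of a normed space, `p > 1`, `v'_i = ‖v_i‖^(2/p-1) • v_i`
(so that `‖v'_i‖^p = ‖v_i‖^2`):
`‖∑ v‖^2 ≤ 9/10 n ∑ ‖v‖^2 + 10/9 4^p n^(2-p) ‖∑ v'‖^p`.

Proof.  `a_i = ‖v_i‖`, `A = ∑ a`, `Q = ∑ a^2`, `D = ‖∑ v‖ ≤ A`, `D' = ‖∑ v'‖`, `β = 2/p - 1`.
Case 1: `A^2 ≤ 9/10 n Q`: then `D^2 ≤ A^2`, done (second term is nonnegative).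
Case 2: `9/10 n Q < A^2`.  Then `A > 0`, `n ≥ 1`, `Q > 0`, `m = A/n > 0`, `A^2 ≤ n Q`.
 `v_i = m^(-β) • v'_i + (1 - (a_i/m)^β) • v_i`, hence
 `D ≤ m^(-β) D' + ∑ |1 - x_i^β| a_i`, `x_i = a_i/m`, and `|1 - x^β| x = |x - x^(2/p)| ≤ (1+x)|x-1|`
 (`abs_sub_rpow_le`), so the error is `≤ ∑ (1 + a_i/m)|a_i - m| ≤ 13/20 sqrt(nQ)` (`err_bound`).
 2a: `m^(-β) D' ≤ 1/4 sqrt(nQ)`: `D ≤ 9/10 sqrt(nQ)`, `D^2 ≤ 81/100 n Q`.
 2b: otherwise `1 < y := 4 m^(-β) D' / sqrt(nQ)`, so `D^2 ≤ nQ ≤ nQ y^p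
   = 4^p * (nQ (nQ)^(-p/2) (m^2)^((p-2)/2)) * D'^p ≤ 4^p * 10/9 n^(2-p) D'^p`
   by `const_bound` with `w = m^2` (`9/10 Q/n < m^2 ≤ Q/n`). -/

namespace Vale.Agent.P125.Char

open scoped BigOperators

/-- scalar estimate of one error term -/
lemma pw_term_scalar (p β m x : ℝ) (hp : 1 < p) (hβ : β = 2 / p - 1) (hmpos : 0 < m)
    (hx0 : 0 ≤ x) : |1 - x ^ β| * (m * x) ≤ (1 + x) * |m * x - m| := by
  have hp0 : 0 < p := by linarith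
  have hγ : β + 1 = 2 / p := by rw [hβ]; ring
  have hγ0 : 0 < 2 / p := by positivity
  have hγ2 : 2 / p ≤ 2 := by
    rw [div_le_iff₀ hp0]
    linarith
  have h1 : |1 - x ^ β| * x = |x - x ^ (2 / p)| := by
    rcases hx0.eq_or_lt with h0 | h0
    · rw [← h0, Real.zero_rpow hγ0.ne']
      simp
    · rw [← hγ, Real.rpow_add h0, Real.rpow_one]
      have : x - x ^ β * x = (1 - x ^ β) * x := by ring
      rw [this, abs_mul, abs_of_pos h0]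
  have h2 := abs_sub_rpow_le x (2 / p) hx0 hγ0 hγ2
  have h3 : |m * x - m| = m * |x - 1| := by
    have : m * x - m = m * (x - 1) := by ring
    rw [this, abs_mul, abs_of_pos hmpos]
  rw [h3]
  calc |1 - x ^ β| * (m * x) = m * (|1 - x ^ β| * x) := by ring
    _ = m * |x - x ^ (2 / p)| := by rw [h1]
    _ ≤ m * ((1 + x) * |x - 1|) := mul_le_mul_of_nonneg_left h2 hmpos.le
    _ = (1 + x) * (m * |x - 1|) := by ring

/-- case 2b: the main term dominates -/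
lemma pw_case_b (p β t Q m D' : ℝ) (hp : 1 < p) (hβ : β = 2 / p - 1) (ht : 1 ≤ t) (hQpos : 0 < Q)
    (hmpos : 0 < m) (hD'0 : 0 ≤ D') (h1 : 9 / 10 * Q / t < m ^ 2) (h2 : m ^ 2 ≤ Q / t)
    (hb : 1 / 4 * Real.sqrt (t * Q) < m ^ (-β) * D') :
    t * Q ≤ 10 / 9 * (4 : ℝ) ^ p * t ^ (2 - p) * D' ^ p := by
  have hp0 : 0 < p := by linarith
  have htpos : 0 < t := by linarith
  have hnQ : 0 < t * Q := mul_pos htpos hQpos
  obtain ⟨R, hR⟩ : ∃ R, R = Real.sqrt (t * Q) := ⟨_, rfl⟩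
  rw [← hR] at hb
  have hRpos : 0 < R := by
    rw [hR]
    exact Real.sqrt_pos.mpr hnQ
  obtain ⟨c, hc⟩ : ∃ c, c = m ^ (-β) := ⟨_, rfl⟩
  rw [← hc] at hb
  have hcpos : 0 < c := hc ▸ Real.rpow_pos_of_pos hmpos _
  obtain ⟨y, hy⟩ : ∃ y, y = 4 * c * D' / R := ⟨_, rfl⟩
  have hy1 : 1 ≤ y := by
    rw [hy, le_div_iff₀ hRpos]
    linarith
  have hyp : 1 ≤ y ^ p := Real.one_le_rpow hy1 hp0.le
  have hcp : c ^ p = (m ^ 2) ^ ((p - 2) / 2) := by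
    rw [hc, ← Real.rpow_mul hmpos.le, ← Real.rpow_natCast m 2, ← Real.rpow_mul hmpos.le]
    congr 1
    rw [hβ]
    push_cast
    field_simp
    ring
  have hRp : R ^ p = (t * Q) ^ (p / 2) := by
    rw [hR, Real.sqrt_eq_rpow, ← Real.rpow_mul hnQ.le]
    congr 1
    ring
  have hyexp : y ^ p = (4 : ℝ) ^ p * (m ^ 2) ^ ((p - 2) / 2) * D' ^ p
      * (t * Q) ^ (-(p / 2)) := by
    rw [hy, Real.div_rpow (by positivity) hRpos.le, Real.mul_rpow (by positivity) hD'0,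
      Real.mul_rpow (by norm_num) hcpos.le, hcp, hRp, Real.rpow_neg hnQ.le]
    rfl
  have hcb := const_bound p t Q (m ^ 2) hp ht hQpos h1 h2
  have h4p : 0 ≤ (4 : ℝ) ^ p := Real.rpow_nonneg (by norm_num) _
  have hDp : 0 ≤ D' ^ p := Real.rpow_nonneg hD'0 _
  calc t * Q = t * Q * 1 := by ring
    _ ≤ t * Q * y ^ p := mul_le_mul_of_nonneg_left hyp hnQ.le
    _ = (4 : ℝ) ^ p * D' ^ p
          * (t * Q * (t * Q) ^ (-(p / 2)) * (m ^ 2) ^ ((p - 2) / 2)) := by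
        rw [hyexp]
        ring
    _ ≤ (4 : ℝ) ^ p * D' ^ p * (10 / 9 * t ^ (2 - p)) :=
        mul_le_mul_of_nonneg_left hcb (mul_nonneg h4p hDp)
    _ = 10 / 9 * (4 : ℝ) ^ p * t ^ (2 - p) * D' ^ p := by ring

/-- the decomposition `D ≤ m^(-β) D' + error` -/
lemma pw_decomp {X : Type*} [NormedAddCommGroup X] [NormedSpace ℝ X] (p β m : ℝ) (hp : 1 < p)
    (hβ : β = 2 / p - 1) (hmpos : 0 < m) {n : ℕ} (v : Fin n → X) :
    ‖∑ i, v i‖ ≤ m ^ (-β) * ‖∑ i, (‖v i‖ ^ β) • v i‖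
      + ∑ i, (1 + ‖v i‖ / m) * |‖v i‖ - m| := by
  obtain ⟨c, hc⟩ : ∃ c, c = m ^ (-β) := ⟨_, rfl⟩
  rw [← hc]
  have hcpos : 0 < c := hc ▸ Real.rpow_pos_of_pos hmpos _
  have hcx : ∀ i, c * ‖v i‖ ^ β = (‖v i‖ / m) ^ β := by
    intro i
    rw [hc, Real.div_rpow (norm_nonneg _) hmpos.le, Real.rpow_neg hmpos.le]
    field_simp
  have hdecomp : ∑ i, v i
      = c • ∑ i, (‖v i‖ ^ β) • v i + ∑ i, (1 - (‖v i‖ / m) ^ β) • v i := by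
    rw [Finset.smul_sum, ← Finset.sum_add_distrib]
    apply Finset.sum_congr rfl
    intro i _
    rw [smul_smul, hcx, ← add_smul]
    simp
  have hterm : ∀ i, ‖(1 - (‖v i‖ / m) ^ β) • v i‖ ≤ (1 + ‖v i‖ / m) * |‖v i‖ - m| := by
    intro i
    rw [norm_smul, Real.norm_eq_abs]
    have hx0 : 0 ≤ ‖v i‖ / m := div_nonneg (norm_nonneg _) hmpos.le
    have hax : m * (‖v i‖ / m) = ‖v i‖ := by
      field_simp
    have h := pw_term_scalar p β m (‖v i‖ / m) hp hβ hmpos hx0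
    rw [hax] at h
    exact h
  calc ‖∑ i, v i‖
      = ‖c • ∑ i, (‖v i‖ ^ β) • v i + ∑ i, (1 - (‖v i‖ / m) ^ β) • v i‖ := by rw [← hdecomp]
    _ ≤ ‖c • ∑ i, (‖v i‖ ^ β) • v i‖ + ‖∑ i, (1 - (‖v i‖ / m) ^ β) • v i‖ := norm_add_le _ _
    _ ≤ c * ‖∑ i, (‖v i‖ ^ β) • v i‖ + ∑ i, ‖(1 - (‖v i‖ / m) ^ β) • v i‖ := by
        rw [norm_smul, Real.norm_eq_abs, abs_of_pos hcpos]
        exact add_le_add le_rfl (norm_sum_le _ _)
    _ ≤ c * ‖∑ i, (‖v i‖ ^ β) • v i‖ + ∑ i, (1 + ‖v i‖ / m) * |‖v i‖ - m| :=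
        add_le_add le_rfl (Finset.sum_le_sum fun i _ => hterm i)

theorem pathwise_fin {X : Type*} [NormedAddCommGroup X] [NormedSpace ℝ X] (p : ℝ) (hp : 1 < p)
    {n : ℕ} (v : Fin n → X) :
    ‖∑ i, v i‖ ^ 2 ≤ 9 / 10 * (n : ℝ) * ∑ i, ‖v i‖ ^ 2
      + 10 / 9 * (4 : ℝ) ^ p * (n : ℝ) ^ (2 - p) * ‖∑ i, (‖v i‖ ^ (2 / p - 1)) • v i‖ ^ p := by
  obtain ⟨β, hβ⟩ : ∃ β : ℝ, β = 2 / p - 1 := ⟨_, rfl⟩
  rw [← hβ]
  obtain ⟨A, hA⟩ : ∃ A, A = ∑ j, ‖v j‖ := ⟨_, rfl⟩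
  obtain ⟨Q, hQ⟩ : ∃ Q, Q = ∑ i, ‖v i‖ ^ 2 := ⟨_, rfl⟩
  obtain ⟨D, hD⟩ : ∃ D, D = ‖∑ i, v i‖ := ⟨_, rfl⟩
  obtain ⟨D', hD'⟩ : ∃ D', D' = ‖∑ i, (‖v i‖ ^ β) • v i‖ := ⟨_, rfl⟩
  have hdec := fun m hm => pw_decomp p β m hp hβ hm v
  have herr0 := err_bound (fun i => ‖v i‖) (fun i => norm_nonneg _)
  have hDA : D ≤ A := by
    rw [hD, hA]
    exact norm_sum_le _ _
  have hAQ : A ^ 2 ≤ n * Q := by
    have h3 := sq_sum_le_card_mul_sum_sq (s := Finset.univ) (f := fun i => ‖v i‖)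
    simp only [Finset.card_univ, Fintype.card_fin] at h3
    rw [hA, hQ]
    exact h3
  have hn00 : n = 0 → A = 0 := by
    intro h0
    subst h0
    simp [hA]
  have hD0 : 0 ≤ D := hD ▸ norm_nonneg _
  have hD'0 : 0 ≤ D' := hD' ▸ norm_nonneg _
  have hQ0 : 0 ≤ Q := hQ ▸ Finset.sum_nonneg fun i _ => sq_nonneg _
  have hA0 : 0 ≤ A := hA ▸ Finset.sum_nonneg fun i _ => norm_nonneg _
  simp only [← hA, ← hQ] at herr0
  rw [← hQ, ← hD, ← hD']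
  rw [← hD, ← hD'] at hdec
  clear hA hQ hD hD'
  have hn0 : (0 : ℝ) ≤ n := Nat.cast_nonneg n
  have hsec : 0 ≤ 10 / 9 * (4 : ℝ) ^ p * (n : ℝ) ^ (2 - p) * D' ^ p := by
    have h1 : 0 ≤ (4 : ℝ) ^ p := Real.rpow_nonneg (by norm_num) _
    have h2 : 0 ≤ (n : ℝ) ^ (2 - p) := Real.rpow_nonneg hn0 _
    have h3 : 0 ≤ D' ^ p := Real.rpow_nonneg hD'0 _
    positivity
  have hDA2 : D ^ 2 ≤ A ^ 2 := pow_le_pow_left₀ hD0 hDA 2
  by_cases hcase : A ^ 2 ≤ 9 / 10 * (n : ℝ) * Q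
  · linarith
  rw [not_le] at hcase
  have hnQ0 : 0 ≤ (n : ℝ) * Q := mul_nonneg hn0 hQ0
  have hApos : 0 < A := by
    rcases hA0.lt_or_eq with h1 | h1
    · exact h1
    · rw [← h1] at hcase
      linarith
  have hn1 : 1 ≤ n := by
    rcases Nat.eq_zero_or_pos n with h0 | h0
    · exact absurd (hn00 h0) hApos.ne'
    · exact h0
  have hn1' : (1 : ℝ) ≤ n := by exact_mod_cast hn1
  have hnpos : (0 : ℝ) < n := by linarith
  have hQpos : 0 < Q := by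
    rcases hQ0.lt_or_eq with h1 | h1
    · exact h1
    · rw [← h1, mul_zero] at hAQ
      have := pow_pos hApos 2
      linarith
  obtain ⟨m, hm⟩ : ∃ m, m = A / n := ⟨_, rfl⟩
  have hmpos : 0 < m := hm ▸ div_pos hApos hnpos
  have hAm : A = n * m := by
    rw [hm]
    field_simp
  obtain ⟨R, hR⟩ : ∃ R, R = Real.sqrt (n * Q) := ⟨_, rfl⟩
  have hR2 : R ^ 2 = n * Q := by
    rw [hR]
    exact Real.sq_sqrt hnQ0
  have herr := herr0 hcase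
  rw [← hm, ← hR] at herr
  have hDle : D ≤ m ^ (-β) * D' + 13 / 20 * R := le_trans (hdec m hmpos) (by linarith)
  by_cases h2a : m ^ (-β) * D' ≤ 1 / 4 * R
  · have h1 : D ≤ 9 / 10 * R := by linarith
    have h2 : D ^ 2 ≤ (9 / 10 * R) ^ 2 := pow_le_pow_left₀ hD0 h1 2
    have h3 : (9 / 10 * R) ^ 2 = 81 / 100 * (n * Q) := by
      rw [mul_pow, hR2]
      norm_num
    linarith
  rw [not_le, hR] at h2a
  have hw1 : 9 / 10 * Q / n < m ^ 2 := by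
    rw [div_lt_iff₀ hnpos]
    rw [hAm] at hcase
    have h3 : (n : ℝ) * (9 / 10 * Q) < n * (m ^ 2 * n) := by
      have e1 : (n : ℝ) * (9 / 10 * Q) = 9 / 10 * n * Q := by ring
      have e2 : (n : ℝ) * (m ^ 2 * n) = (n * m) ^ 2 := by ring
      rw [e1, e2]
      exact hcase
    exact lt_of_mul_lt_mul_left h3 hn0
  have hw2 : m ^ 2 ≤ Q / n := by
    rw [le_div_iff₀ hnpos]
    rw [hAm] at hAQ
    have h3 : (n : ℝ) * (m ^ 2 * n) ≤ n * Q := by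
      have e2 : (n : ℝ) * (m ^ 2 * n) = (n * m) ^ 2 := by ring
      rw [e2]
      exact hAQ
    exact le_of_mul_le_mul_left h3 hnpos
  have hfin := pw_case_b p β n Q m D' hp hβ hn1' hQpos hmpos hD'0 hw1 hw2 h2a
  have h5 : 0 ≤ 9 / 10 * (n : ℝ) * Q := by positivity
  linarith

end Vale.Agent.P125.Char
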